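import Vale.Agent.P021.Main

namespace Vale.Agent.Results.P021.A_full

/-- The exponents `ν > 0` such that `0 < |x - p/q| < q^(-ν)` for infinitely many pairs of coprime
integers `p, q` with `q ≥ 2`. -/
def approxExponents (x : ℝ) : Set ℝ :=
  {ν : ℝ | 0 < ν ∧ {pq : ℤ × ℤ | IsCoprime pq.1 pq.2 ∧ 2 ≤ pq.2 ∧
      0 < |x - (pq.1 : ℝ) / (pq.2 : ℝ)| ∧
      |x - (pq.1 : ℝ) / (pq.2 : ℝ)| < (pq.2 : ℝ) ^ (-ν)}.Infinite}

/-- The irrationality exponent of `π` is `2`: the set of admissible exponents has `2` as its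
least upper bound (and `2` belongs to it). -/
theorem result :
    IsLUB (approxExponents Real.pi) 2 ∧ (2 : ℝ) ∈ approxExponents Real.pi ∧
      sSup (approxExponents Real.pi) = 2 :=
  ⟨Vale.Agent.P021.main.isLUB, Vale.Agent.P021.main.1, Vale.Agent.P021.main.csSup_eq⟩

end Vale.Agent.Results.P021.A_full
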